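import Vale.Agent.P183.Cong

open MatrixGroups

namespace Vale.Agent.Results.P183.A_L7

open Vale.Agent.P183

/-- The seven-element lattice `L₇` is the congruence lattice of a finite algebra, and it is an interval
`[H, G]` in the subgroup lattice of `G = SL(2, 64)`. -/
theorem result :
    (∃ (A : Type) (_ : Fintype A) (_ : Nonempty A) (ops : List (Op A))
      (e : {r : Setoid A // IsCong ops r} ≃ Option (Fin 2 × Fin 3)), ∀ r s, r.1 ≤ s.1 ↔ L7le (e r) (e s)) ∧
    ∃ (H : Subgroup SL(2, GaloisField 2 6)) (e : {K : Subgroup SL(2, GaloisField 2 6) // H ≤ K} ≃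
      Option (Fin 2 × Fin 3)), ∀ K K', K.1 ≤ K'.1 ↔ L7le (e K) (e K') :=
  main

end Vale.Agent.Results.P183.A_L7
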